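import Vale.Agent.P088.R2.H551.B.Spec
import Vale.Agent.P088.R2.H593.FinD2

/-!
# P088: data on a patch and the final statement for pairs on domains
-/

open MeasureTheory Set Filter Topology
open scoped ContDiff Matrix

noncomputable section

namespace Vale.Agent.P088.PJ.Bd

open Vale.Agent.P088.LR Vale.Agent.P088.LR.B Vale.Agent.P088.LR.U Vale.Agent.P088.LR.H158
open Vale.Agent.P088.HY.Bd (scR MetB Osc sdom_scR)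

variable {n N : ℕ}

/-- (RT). -/
theorem rowRT : RowRT := by
  intro n N _ _ ρ hρ g₁ g₂ hg₁ hg₂ hp₁ hp₂ A₁ A₂ hA₁ hA₂ h G hG hAcc hP
  exact h (sdu_all ρ hρ g₁ g₂ A₁ A₂ hg₁ hg₂ hp₁ hp₂ hA₁ hA₂ G hG hAcc hP)

theorem ConB.mono {k k' : ℕ} {b : ℕ → ℝ} {A : Cn n N} (h : ConB k' b A) (hk : k ≤ k') :
    ConB k b A :=
  ⟨h.1, fun i α β l hl x => h.2 i α β l (hl.trans hk) x⟩

/-- From the rows (OS), (SB) to the final statement for pairs on smooth bounded domains. -/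
theorem finB_of (hOS : RowOS) (hSB : RowSB) : FinB := by
  intro n N hn hN ρ hρ b
  obtain ⟨k₁, ε, hε, h₁⟩ := hOS n N hn hN ρ hρ b
  obtain ⟨k₂, r₀, hr₀, h₂⟩ := hSB n N hn hN ρ hρ b
  refine ⟨max k₁ k₂, r₀, ε, hr₀, hε, fun g₁ g₂ hg₁ hg₂ A₁ A₂ hA₁ hA₂ =>
    ⟨fun ho₁ ho₂ hc₁ hc₂ => ?_, fun r x₀ hr hrr => ?_⟩⟩
  · exact rowRT n N hn hN ρ hρ g₁ g₂ hg₁.1 hg₂.1 hg₁.2.1 hg₂.2.1 A₁ A₂ hA₁.1 hA₂.1
      (h₁ g₁ g₂ (hg₁.mono (le_max_left _ _)) (hg₂.mono (le_max_left _ _)) ho₁ ho₂ A₁ A₂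
        (hA₁.mono (le_max_left _ _)) (hA₂.mono (le_max_left _ _)) hc₁ hc₂)
  · exact rowRT n N hn hN _ (sdom_scR hρ hr x₀) g₁ g₂ hg₁.1 hg₂.1 hg₁.2.1 hg₂.2.1 A₁ A₂
      hA₁.1 hA₂.1 (h₂ g₁ g₂ (hg₁.mono (le_max_right _ _)) (hg₂.mono (le_max_right _ _)) A₁ A₂
        (hA₁.mono (le_max_right _ _)) (hA₂.mono (le_max_right _ _)) r x₀ hr hrr)

end Vale.Agent.P088.PJ.Bd
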